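import Mathlib.Algebra.DualNumber
import Mathlib.Algebra.CharP.Algebra
import Mathlib.Data.Complex.Basic
import Mathlib.Data.Complex.BigOperators
import Mathlib.LinearAlgebra.Complex.Module
import Mathlib.Order.Filter.Finite
import Mathlib.RingTheory.Localization.FractionRing
import Mathlib.FieldTheory.IntermediateField.Algebraic
import Mathlib.FieldTheory.Separable
import Mathlib.FieldTheory.Perfect
import Mathlib.Order.Filter.Basic

/-!
# Flat (special) meromorphic sections: the algebra of step (4')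

`R` is the coordinate ring (holomorphic functions of polynomial growth on the affine model), `L` its
field of fractions. A *flag* `i : ι` is a point `x` together with a tangent vector `ξ` at `x`; it
gives the ring homomorphism `E i : a ↦ a(x) + ε ∂_ξ a(x)` to the dual numbers, and the number
`lam i` (the derivative `∂_ξ φ(x)` of the weight). A function `f ∈ L` is *flat of degree `b`* if
`∂_ξ f + b (∂_ξ φ) f = 0` at all flags outside of a hypersurface `c₀ = 0`.
-/



set_option linter.unusedSectionVars false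

noncomputable section

namespace Vale.Agent.P299.H212

open TrivSqZeroExt

variable {R L ι : Type*} [CommRing R] [IsDomain R] [Algebra ℂ R]
  [Field L] [Algebra R L] [IsFractionRing R L] [Algebra ℂ L] [IsScalarTower ℂ R L]
  (E : ι → R →ₐ[ℂ] DualNumber ℂ)

/-- the filter of sets of flags containing all flags outside of a hypersurface -/
def gen : Filter ι where
  sets := {S | ∃ c : R, c ≠ 0 ∧ ∀ i, (E i c).fst ≠ 0 → i ∈ S}
  univ_sets := ⟨1, one_ne_zero, fun _ _ => trivial⟩
  sets_of_superset := fun ⟨c, hc, h⟩ hST => ⟨c, hc, fun i hi => hST (h i hi)⟩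
  inter_sets := by
    rintro S T ⟨c, hc, h⟩ ⟨d, hd, h'⟩
    refine ⟨c * d, mul_ne_zero hc hd, fun i hi => ?_⟩
    rw [map_mul, fst_mul] at hi
    exact ⟨h i (left_ne_zero_of_mul hi), h' i (right_ne_zero_of_mul hi)⟩

variable {E}

theorem gen_of {c : R} (hc : c ≠ 0) : ∀ᶠ i in gen E, (E i c).fst ≠ 0 :=
  ⟨c, hc, fun _ h => h⟩

theorem gen_iff {P : ι → Prop} : (∀ᶠ i in gen E, P i) ↔
    ∃ c : R, c ≠ 0 ∧ ∀ i, (E i c).fst ≠ 0 → P i := Iff.rfl

theorem isUnit_dual {x : DualNumber ℂ} (h : x.fst ≠ 0) : IsUnit x :=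
  TrivSqZeroExt.isUnit_iff_isUnit_fst.2 (isUnit_iff_ne_zero.2 h)

variable (E) in
/-- `f` is regular at the point of the flag `i` and `v` is its value with the derivative -/
def Val (i : ι) (f : L) (v : DualNumber ℂ) : Prop :=
  ∃ a c : R, algebraMap R L c * f = algebraMap R L a ∧ (E i c).fst ≠ 0 ∧ E i c * v = E i a

variable {i : ι} {f g : L} {v w : DualNumber ℂ}

theorem Val.unique (h : Val E i f v) (h' : Val E i f w) : v = w := by
  obtain ⟨a, c, h1, h2, h3⟩ := h
  obtain ⟨a', c', h1', h2', h3'⟩ := h'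
  have h4 : c' * a = c * a' := by
    apply IsFractionRing.injective R L
    rw [map_mul, map_mul, ← h1, ← h1']
    ring
  have h5 : (E i c * E i c') * v = (E i c * E i c') * w := by
    calc (E i c * E i c') * v = E i c' * (E i c * v) := by ring
      _ = E i (c' * a) := by rw [h3, map_mul]
      _ = E i c * (E i c' * w) := by rw [h4, map_mul, h3']
      _ = _ := by ring
  exact ((isUnit_dual h2).mul (isUnit_dual h2')).mul_left_cancel h5

theorem Val.add (h : Val E i f v) (h' : Val E i g w) : Val E i (f + g) (v + w) := by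
  obtain ⟨a, c, h1, h2, h3⟩ := h
  obtain ⟨a', c', h1', h2', h3'⟩ := h'
  refine ⟨c' * a + c * a', c * c', ?_, ?_, ?_⟩
  · rw [map_mul, map_add, map_mul, map_mul, ← h1, ← h1']
    ring
  · rw [map_mul, fst_mul]; exact mul_ne_zero h2 h2'
  · rw [map_mul, map_add, map_mul, map_mul, ← h3, ← h3']
    ring

theorem Val.mul (h : Val E i f v) (h' : Val E i g w) : Val E i (f * g) (v * w) := by
  obtain ⟨a, c, h1, h2, h3⟩ := h
  obtain ⟨a', c', h1', h2', h3'⟩ := h'
  refine ⟨a * a', c * c', ?_, ?_, ?_⟩
  · rw [map_mul, map_mul, ← h1, ← h1']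
    ring
  · rw [map_mul, fst_mul]; exact mul_ne_zero h2 h2'
  · rw [map_mul, map_mul, ← h3, ← h3']
    ring

theorem val_algebraMap (a : R) : Val E i (algebraMap R L a) (E i a) :=
  ⟨a, 1, by simp, by simp, by simp⟩

theorem val_const (z : ℂ) : Val E i (algebraMap ℂ L z) (inl z) := by
  have := val_algebraMap (E := E) (L := L) (i := i) (algebraMap ℂ R z)
  rw [← IsScalarTower.algebraMap_apply, AlgHom.commutes] at this
  exact this

theorem val_zero : Val E i (0 : L) 0 := by
  have := val_algebraMap (E := E) (L := L) (i := i) (0 : R)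
  rwa [map_zero, map_zero] at this

theorem val_one : Val E i (1 : L) 1 := by
  have := val_algebraMap (E := E) (L := L) (i := i) (1 : R)
  rwa [map_one, map_one] at this

theorem Val.neg (h : Val E i f v) : Val E i (-f) (-v) := by
  obtain ⟨a, c, h1, h2, h3⟩ := h
  exact ⟨-a, c, by rw [map_neg, ← h1]; ring, h2, by rw [map_neg, ← h3]; ring⟩

theorem Val.pow (h : Val E i f v) (k : ℕ) : Val E i (f ^ k) (v ^ k) := by
  induction k with
  | zero => simpa using val_one
  | succ k ih => rw [pow_succ, pow_succ]; exact ih.mul h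

theorem Val.sum {α : Type*} (s : Finset α) {f : α → L} {v : α → DualNumber ℂ}
    (h : ∀ a ∈ s, Val E i (f a) (v a)) : Val E i (∑ a ∈ s, f a) (∑ a ∈ s, v a) := by
  classical
  induction s using Finset.induction_on with
  | empty => simpa using val_zero
  | insert a s ha ih =>
    rw [Finset.sum_insert ha, Finset.sum_insert ha]
    exact (h a (Finset.mem_insert_self a s)).add (ih fun b hb => h b (Finset.mem_insert_of_mem hb))

/-- every function is regular at the generic flag -/
theorem gen_val (f : L) : ∀ᶠ i in gen E, ∃ v, Val E i f v := by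
  obtain ⟨a, c, hc, rfl⟩ := IsFractionRing.div_surjective (A := R) f
  have hc0 : c ≠ 0 := nonZeroDivisors.ne_zero hc
  filter_upwards [gen_of (E := E) hc0] with i hi
  obtain ⟨u, hu⟩ := isUnit_dual hi
  refine ⟨↑u⁻¹ * E i a, a, c, ?_, hi, ?_⟩
  · rw [mul_div_cancel₀]
    exact fun h => hc0 ((map_eq_zero_iff _ (IsFractionRing.injective R L)).1 h)
  · rw [← hu, ← mul_assoc, Units.mul_inv, one_mul]

/-- every nonzero function is regular and nonzero at the generic flag -/
theorem gen_val_ne {f : L} (hf : f ≠ 0) : ∀ᶠ i in gen E, ∃ v, Val E i f v ∧ v.fst ≠ 0 := by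
  filter_upwards [gen_val (E := E) f, gen_val (E := E) f⁻¹] with i ⟨v, hv⟩ ⟨w, hw⟩
  refine ⟨v, hv, fun h0 => ?_⟩
  have h1 := hv.mul hw
  rw [mul_inv_cancel₀ hf] at h1
  have h2 := congrArg TrivSqZeroExt.fst (h1.unique val_one)
  rw [fst_mul, h0, zero_mul, fst_one] at h2
  exact zero_ne_one h2

theorem Val.inv (h : Val E i f v) (h0 : v.fst ≠ 0) : ∃ w, Val E i f⁻¹ w ∧ v * w = 1 := by
  obtain ⟨a, c, h1, h2, h3⟩ := h
  have ha : (E i a).fst ≠ 0 := by rw [← h3, fst_mul]; exact mul_ne_zero h2 h0
  obtain ⟨u, hu⟩ := isUnit_dual ha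
  have hf : f ≠ 0 := by
    rintro rfl
    rw [mul_zero] at h1
    have : a = 0 := (map_eq_zero_iff _ (IsFractionRing.injective R L)).1 h1.symm
    rw [this, map_zero, fst_zero] at ha
    exact ha rfl
  refine ⟨↑u⁻¹ * E i c, ⟨c, a, ?_, ha, ?_⟩, ?_⟩
  · rw [← h1, mul_assoc, mul_inv_cancel₀ hf, mul_one]
  · rw [← hu, ← mul_assoc, Units.mul_inv, one_mul]
  · calc v * (↑u⁻¹ * E i c) = ↑u⁻¹ * (E i c * v) := by ring
      _ = 1 := by rw [h3, ← hu, Units.inv_mul]

variable (E) in
/-- `f` is flat of degree `b` -/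
def Flat (lam : ι → ℂ) (b : ℤ) (f : L) : Prop :=
  ∀ᶠ i in gen E, ∃ v, Val E i f v ∧ v.snd + b * lam i * v.fst = 0

variable {lam : ι → ℂ} {b b' : ℤ}

theorem Flat.mul (h : Flat E lam b f) (h' : Flat E lam b' g) : Flat E lam (b + b') (f * g) := by
  filter_upwards [h, h'] with i ⟨v, hv, h1⟩ ⟨w, hw, h2⟩
  refine ⟨v * w, hv.mul hw, ?_⟩
  rw [snd_mul, fst_mul]
  push_cast
  simp only [smul_eq_mul, MulOpposite.smul_eq_mul_unop, MulOpposite.unop_op]
  linear_combination w.fst * h1 + v.fst * h2

theorem flat_one : Flat E lam 0 (1 : L) :=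
  Filter.Eventually.of_forall fun i => ⟨1, val_one, by simp⟩

theorem flat_const (z : ℂ) : Flat E lam 0 (algebraMap ℂ L z) :=
  Filter.Eventually.of_forall fun i => ⟨inl z, val_const z, by simp⟩

theorem flat_zero : Flat E lam b (0 : L) :=
  Filter.Eventually.of_forall fun i => ⟨0, val_zero, by simp⟩

theorem Flat.add (h : Flat E lam b f) (h' : Flat E lam b g) : Flat E lam b (f + g) := by
  filter_upwards [h, h'] with i ⟨v, hv, h1⟩ ⟨w, hw, h2⟩
  refine ⟨v + w, hv.add hw, ?_⟩
  rw [snd_add, fst_add]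
  linear_combination h1 + h2

theorem Flat.inv (h : Flat E lam b f) : Flat E lam (-b) f⁻¹ := by
  rcases eq_or_ne f 0 with rfl | hf
  · rw [inv_zero]; exact flat_zero
  filter_upwards [h, gen_val_ne (E := E) hf] with i ⟨v, hv, h1⟩ ⟨v', hv', h0⟩
  obtain rfl := hv.unique hv'
  obtain ⟨w, hw, hvw⟩ := hv.inv h0
  refine ⟨w, hw, ?_⟩
  have h2 := congrArg TrivSqZeroExt.fst hvw
  have h3 := congrArg TrivSqZeroExt.snd hvw
  rw [fst_mul, fst_one] at h2
  rw [snd_mul, snd_one] at h3
  simp only [smul_eq_mul, MulOpposite.smul_eq_mul_unop, MulOpposite.unop_op] at h3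
  have h4 : v.fst * (w.snd + (-b : ℤ) * lam i * w.fst) = 0 := by
    push_cast
    linear_combination h3 - w.fst * h1
  exact (mul_eq_zero.1 h4).resolve_left h0

theorem Flat.pow (h : Flat E lam b f) (k : ℕ) : Flat E lam (k * b) (f ^ k) := by
  induction k with
  | zero => simpa using flat_one
  | succ k ih =>
    rw [pow_succ]
    have := ih.mul h
    have h2 : ((k + 1 : ℕ) : ℤ) * b = k * b + b := by push_cast; ring
    rwa [h2]

theorem Flat.zpow (h : Flat E lam b f) (k : ℤ) : Flat E lam (k * b) (f ^ k) := by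
  rcases k with k | k
  · simpa using h.pow k
  · rw [zpow_negSucc]
    have := (h.pow (k + 1)).inv
    rwa [show -(((k + 1 : ℕ) : ℤ) * b) = Int.negSucc k * b by
      rw [Int.negSucc_eq]; push_cast; ring] at this

theorem Flat.neg (h : Flat E lam b f) : Flat E lam b (-f) := by
  filter_upwards [h] with i ⟨v, hv, h1⟩
  refine ⟨-v, hv.neg, ?_⟩
  rw [snd_neg, fst_neg]
  linear_combination -h1

variable (L E lam) in
/-- The field `K` of flat meromorphic functions (it does not depend on `lam`). -/
def flatField : IntermediateField ℂ L where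
  carrier := {f | Flat E lam 0 f}
  mul_mem' := fun h h' => by simpa using Flat.mul h h'
  one_mem' := flat_one
  add_mem' := fun h h' => h.add h'
  zero_mem' := flat_zero
  algebraMap_mem' := flat_const
  inv_mem' := fun f h => by simpa using Flat.inv h

theorem mem_flatField : f ∈ flatField L E lam ↔ Flat E lam 0 f := Iff.rfl

theorem snd_pow_dual (v : DualNumber ℂ) (k : ℕ) :
    (v ^ k).snd = k * v.fst ^ (k - 1) * v.snd := by
  rw [TrivSqZeroExt.snd_pow, nsmul_eq_mul, smul_eq_mul, Nat.pred_eq_sub_one]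
  ring

/-- **`K` is algebraically closed in `L`.** -/
theorem flatField_algClosed (h : IsAlgebraic (flatField L E lam) f) : f ∈ flatField L E lam := by
  classical
  set K := flatField L E lam with hK
  have : CharZero K := charZero_of_injective_algebraMap (R := ℂ) (algebraMap ℂ K).injective
  have hint : IsIntegral K f := h.isIntegral
  set P := minpoly K f with hP
  have hsep : P.Separable := (minpoly.irreducible hint).separable
  have h0 : Polynomial.aeval f P = 0 := minpoly.aeval K f
  have h1 : Polynomial.aeval f P.derivative ≠ 0 := hsep.aeval_derivative_ne_zero h0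
  -- the coefficients are flat at the generic flag
  have hcoef : ∀ᶠ i in gen E, ∀ k ∈ Finset.range (P.natDegree + 1),
      ∃ v, Val E i ((P.coeff k : K) : L) v ∧ v.snd = 0 := by
    rw [Filter.eventually_all_finset]
    intro k _
    have : Flat E lam 0 ((P.coeff k : K) : L) := (P.coeff k).2
    filter_upwards [this] with i ⟨v, hv, h2⟩
    exact ⟨v, hv, by simpa using h2⟩
  rw [mem_flatField]
  filter_upwards [hcoef, gen_val (E := E) f, gen_val_ne (E := E) h1] with i hc ⟨v, hv⟩ ⟨w, hw, hw0⟩
  refine ⟨v, hv, ?_⟩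
  choose! c hc hc0 using hc
  have h2 : Val E i (∑ k ∈ Finset.range (P.natDegree + 1), ((P.coeff k : K) : L) * f ^ k)
      (∑ k ∈ Finset.range (P.natDegree + 1), c k * v ^ k) :=
    Val.sum _ fun k hk => (hc k hk).mul (hv.pow k)
  have h3 : (∑ k ∈ Finset.range (P.natDegree + 1), ((P.coeff k : K) : L) * f ^ k) = 0 := by
    rw [← h0, Polynomial.aeval_eq_sum_range]
    refine Finset.sum_congr rfl fun k _ => ?_
    rw [Algebra.smul_def]
    rfl
  rw [h3] at h2
  have h4 := congrArg TrivSqZeroExt.snd (val_zero.unique h2)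
  rw [snd_zero, TrivSqZeroExt.snd_sum] at h4
  -- the derivative
  have h5 : Val E i (∑ k ∈ Finset.range (P.natDegree + 1),
      ((P.coeff k : K) : L) * (algebraMap ℂ L k * f ^ (k - 1)))
      (∑ k ∈ Finset.range (P.natDegree + 1), c k * (inl (k : ℂ) * v ^ (k - 1))) :=
    Val.sum _ fun k hk => (hc k hk).mul ((val_const _).mul (hv.pow _))
  have h6 : (∑ k ∈ Finset.range (P.natDegree + 1),
      ((P.coeff k : K) : L) * (algebraMap ℂ L k * f ^ (k - 1))) =
      Polynomial.aeval f P.derivative := by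
    conv_rhs => rw [P.as_sum_range, Polynomial.derivative_sum, map_sum]
    refine Finset.sum_congr rfl fun k _ => ?_
    rw [Polynomial.derivative_monomial, Polynomial.aeval_monomial, map_mul, map_natCast,
      map_natCast, mul_assoc]
    rfl
  rw [h6] at h5
  have h7 := congrArg TrivSqZeroExt.fst (hw.unique h5)
  rw [TrivSqZeroExt.fst_sum] at h7
  have h8 : w.fst * v.snd = 0 := by
    rw [h7, Finset.sum_mul]
    rw [h4]
    refine Finset.sum_congr rfl fun k hk => ?_
    rw [fst_mul, fst_mul, fst_pow, fst_inl, snd_mul, hc0 k hk, snd_pow_dual]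
    simp only [smul_eq_mul, MulOpposite.smul_eq_mul_unop, MulOpposite.unop_op]
    ring
  rw [(mul_eq_zero.1 h8).resolve_left hw0]
  simp

end Vale.Agent.P299.H212
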