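import Vale.Agent.P299.H212.Flat
import Mathlib.Algebra.Group.Subgroup.Basic
import Mathlib.RingTheory.Int.Basic
import Mathlib.Algebra.EuclideanDomain.Int
import Mathlib.RingTheory.PrincipalIdealDomain
import Mathlib.GroupTheory.Archimedean
import Mathlib.Algebra.Order.Archimedean.Basic

/-!
# Step (4'): the group of degrees of flat meromorphic sections
-/

set_option linter.unusedSectionVars false

noncomputable section

namespace Vale.Agent.P299.H212

variable {R L ι : Type*} [CommRing R] [IsDomain R] [Algebra ℂ R]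
  [Field L] [Algebra R L] [IsFractionRing R L] [Algebra ℂ L] [IsScalarTower ℂ R L]
  {E : ι → R →ₐ[ℂ] DualNumber ℂ} {lam : ι → ℂ}

variable (L E lam) in
/-- the group of all `b` such that there is a nonzero flat section of degree `b` -/
def degGroup : AddSubgroup ℤ where
  carrier := {b | ∃ f : L, f ≠ 0 ∧ Flat E lam b f}
  add_mem' := fun ⟨f, hf, h⟩ ⟨g, hg, h'⟩ => ⟨f * g, mul_ne_zero hf hg, h.mul h'⟩
  zero_mem' := ⟨1, one_ne_zero, flat_one⟩
  neg_mem' := fun ⟨f, hf, h⟩ => ⟨f⁻¹, inv_ne_zero hf, h.inv⟩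

theorem mem_degGroup {b : ℤ} : b ∈ degGroup L E lam ↔ ∃ f : L, f ≠ 0 ∧ Flat E lam b f := Iff.rfl

/-- **Step (4')**: if there is a nonzero flat section of nonzero degree, then there are `b₁ > 0` and
a flat `s ≠ 0` of degree `b₁` such that the nonzero flat sections of degree `b` are the `g s^j`,
`b = j b₁`, `0 ≠ g ∈ K`. -/
theorem exists_generator {b₀ : ℤ} (hb₀ : b₀ ≠ 0) {f₀ : L} (hf₀ : f₀ ≠ 0)
    (hF : Flat E lam b₀ f₀) :
    ∃ (b₁ : ℕ) (s : L), 0 < b₁ ∧ s ≠ 0 ∧ Flat E lam b₁ s ∧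
      ∀ (b : ℤ) (f : L), f ≠ 0 → Flat E lam b f →
        ∃ (j : ℤ) (g : L), b = j * b₁ ∧ g ∈ flatField L E lam ∧ g ≠ 0 ∧ f = s ^ j * g := by
  obtain ⟨a, ha⟩ := Int.subgroup_cyclic (degGroup L E lam)
  have hmem : ∀ b : ℤ, b ∈ degGroup L E lam ↔ ∃ j : ℤ, b = j * a := by
    intro b
    rw [ha, AddSubgroup.mem_closure_singleton]
    simp only [smul_eq_mul, eq_comm]
  have ha0 : a ≠ 0 := by
    rintro rfl
    obtain ⟨j, hj⟩ := (hmem b₀).1 ⟨f₀, hf₀, hF⟩
    exact hb₀ (by simpa using hj)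
  have hab : ((a.natAbs : ℕ) : ℤ) ∈ degGroup L E lam := by
    rw [hmem]
    rcases Int.natAbs_eq a with h | h
    · exact ⟨1, by rw [one_mul]; exact h.symm⟩
    · exact ⟨-1, by omega⟩
  obtain ⟨s, hs, hsF⟩ := hab
  refine ⟨a.natAbs, s, Int.natAbs_pos.2 ha0, hs, hsF, fun b f hf hb => ?_⟩
  obtain ⟨j, hj⟩ := (hmem b).1 ⟨f, hf, hb⟩
  obtain ⟨j', hj'⟩ : ∃ j' : ℤ, b = j' * (a.natAbs : ℤ) := by
    rcases Int.natAbs_eq a with h | h
    · exact ⟨j, by rw [hj, ← h]⟩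
    · refine ⟨-j, ?_⟩
      rw [hj]
      have : (a.natAbs : ℤ) = -a := by omega
      rw [this]; ring
  have hsj : s ^ j' ≠ 0 := zpow_ne_zero _ hs
  refine ⟨j', f / s ^ j', hj', ?_, div_ne_zero hf hsj, ?_⟩
  · rw [mem_flatField, div_eq_mul_inv]
    have := hb.mul (hsF.zpow j').inv
    rwa [hj', add_neg_cancel] at this
  · rw [mul_div_cancel₀ _ hsj]

end Vale.Agent.P299.H212
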