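import Vale.Agent.P299.H340.Model.Alg
import Mathlib.RingTheory.Jacobson.Ring
import Mathlib.FieldTheory.IsAlgClosed.Basic

/-!
# P299 / H212: the ring of regular functions of a model: generators and Nullstellensatz
-/

set_option linter.all false

open Vale.Agent Vale.Agent.P299.H340
open Vale.Agent.P282.L2 (Pol Prim)

noncomputable section

namespace Vale.Agent.P299.H212

variable {n : ℕ} {K : Type} [Field K] [Algebra ℂ K] [Algebra (Pol n) K]
  [IsScalarTower ℂ (Pol n) K] [FaithfulSMul (Pol n) K] (A : Mod n K)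

/-- the ring of regular functions, as a subalgebra over `ℂ` -/
def regC : Subalgebra ℂ K where
  carrier := {a | A.IsReg a}
  mul_mem' := fun ha hb => Mod.IsReg.mul ha hb
  add_mem' := fun ha hb => Mod.IsReg.add ha hb
  algebraMap_mem' := fun c => Mod.isReg_const c

variable {A}

theorem mem_regC {a : K} : a ∈ regC A ↔ A.IsReg a := Iff.rfl

/-- generators of the ring of regular functions -/
theorem regC_eq_adjoin : regC A = Algebra.adjoin ℂ (insert (algebraMap (Pol n) K A.E.h)⁻¹
    (insert A.E.y (Set.range fun i : Fin n => algebraMap (Pol n) K (MvPolynomial.X i)))) := by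
  set G : Set K := insert (algebraMap (Pol n) K A.E.h)⁻¹
    (insert A.E.y (Set.range fun i : Fin n => algebraMap (Pol n) K (MvPolynomial.X i))) with hG
  apply le_antisymm
  · intro a ha
    obtain ⟨f, k, hf⟩ := ha
    have hz : ∀ c : Pol n, algebraMap (Pol n) K c ∈ Algebra.adjoin ℂ G := by
      intro c
      induction c using MvPolynomial.induction_on with
      | C c =>
        have : algebraMap (Pol n) K (MvPolynomial.C c) = algebraMap ℂ K c := by
          rw [IsScalarTower.algebraMap_apply ℂ (Pol n) K]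
          rfl
        rw [this]
        exact Subalgebra.algebraMap_mem _ _
      | add p q hp hq => rw [map_add]; exact add_mem hp hq
      | mul_X p i hp =>
        rw [map_mul]
        exact mul_mem hp (Algebra.subset_adjoin (by simp [hG]))
    have hy : A.E.y ∈ Algebra.adjoin ℂ G := Algebra.subset_adjoin (by simp [hG])
    have hh : (algebraMap (Pol n) K A.E.h)⁻¹ ∈ Algebra.adjoin ℂ G :=
      Algebra.subset_adjoin (by simp [hG])
    have h1 : Polynomial.aeval A.E.y f ∈ Algebra.adjoin ℂ G := by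
      rw [Polynomial.aeval_eq_sum_range]
      refine sum_mem fun i _ => ?_
      rw [Algebra.smul_def]
      exact mul_mem (hz _) (pow_mem hy _)
    have h2 : a = (algebraMap (Pol n) K A.E.h)⁻¹ ^ k * Polynomial.aeval A.E.y f := by
      have h3 := Prim.ev_aux_h A.E
      rw [← hf, ← mul_assoc, ← mul_pow, inv_mul_cancel₀ h3, one_pow, one_mul]
    rw [h2]
    exact mul_mem (pow_mem hh _) h1
  · rw [Algebra.adjoin_le_iff]
    intro a ha
    rcases ha with rfl | rfl | ⟨i, rfl⟩
    · exact Mod.isReg_h_inv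
    · exact Mod.isReg_y
    · exact Mod.isReg_alg _

variable (A) in
theorem regC_fg : (regC A).FG := by
  have hfin : (insert (algebraMap (Pol n) K A.E.h)⁻¹ (insert A.E.y
      (Set.range fun i : Fin n => algebraMap (Pol n) K (MvPolynomial.X i)))).Finite :=
    ((Set.finite_range _).insert _).insert _
  refine ⟨hfin.toFinset, ?_⟩
  rw [Set.Finite.coe_toFinset, regC_eq_adjoin]

instance : Algebra.FiniteType ℂ (regC A) := (Subalgebra.fg_iff_finiteType _).1 (regC_fg A)

/-- the points of the cover are the points of the ring of regular functions -/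
theorem exists_q (x : regC A →ₐ[ℂ] ℂ) : ∃ q ∈ A.S.M, ∀ a : regC A, x a = A.val a q := by
  have := Mod.exists_point (A := A)
    { toFun := fun a : A.regSub => x ⟨a.1, a.2⟩
      map_one' := x.map_one
      map_mul' := fun a b => x.map_mul ⟨a.1, a.2⟩ ⟨b.1, b.2⟩
      map_zero' := x.map_zero
      map_add' := fun a b => x.map_add ⟨a.1, a.2⟩ ⟨b.1, b.2⟩ } (fun c => by
      have h1 : (⟨((algebraMap (Pol n) A.regSub (MvPolynomial.C c) : A.regSub) : K),
          (algebraMap (Pol n) A.regSub (MvPolynomial.C c)).2⟩ : regC A) =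
          algebraMap ℂ (regC A) c := by
        apply Subtype.ext
        show algebraMap (Pol n) K (MvPolynomial.C c) = algebraMap ℂ K c
        rw [IsScalarTower.algebraMap_apply ℂ (Pol n) K]
        rfl
      show x ⟨((algebraMap (Pol n) A.regSub (MvPolynomial.C c) : A.regSub) : K), _⟩ = c
      rw [h1, AlgHom.commutes]
      rfl)
  obtain ⟨q, hq, h⟩ := this
  exact ⟨q, hq, fun a => h ⟨a.1, a.2⟩⟩

/-- the evaluation at a point -/
def evq {q : (Fin n → ℂ) × ℕ} (hq : q ∈ A.S.M) : regC A →ₐ[ℂ] ℂ where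
  toFun a := A.val a q
  map_one' := Mod.val_one hq
  map_mul' a b := Mod.val_mul hq a.2 b.2
  map_zero' := Mod.val_zero hq
  map_add' a b := Mod.val_add hq a.2 b.2
  commutes' c := Mod.val_const hq c

/-- **Nullstellensatz** -/
theorem exists_sum_eq_one {ι : Type*} [Fintype ι] {a : ι → K} (ha : ∀ i, A.IsReg (a i))
    (h : ∀ q ∈ A.S.M, ∃ i, A.val (a i) q ≠ 0) :
    ∃ b : ι → K, (∀ i, A.IsReg (b i)) ∧ ∑ i, b i * a i = 1 := by
  set a' : ι → regC A := fun i => ⟨a i, ha i⟩ with ha'
  set I : Ideal (regC A) := Ideal.span (Set.range a') with hI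
  have htop : I = ⊤ := by
    by_contra hne
    obtain ⟨M, hM, hIM⟩ := Ideal.exists_le_maximal I hne
    letI : Field (regC A ⧸ M) := Ideal.Quotient.field M
    have h1 : Algebra.FiniteType ℂ (regC A ⧸ M) := Algebra.FiniteType.of_surjective
      (Ideal.Quotient.mkₐ ℂ M) (Ideal.Quotient.mkₐ_surjective ℂ M)
    have h2 : Module.Finite ℂ (regC A ⧸ M) := finite_of_finite_type_of_isJacobsonRing ℂ _
    have h3 : Function.Bijective (algebraMap ℂ (regC A ⧸ M)) :=
      IsAlgClosed.algebraMap_bijective_of_isIntegral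
    let E : ℂ ≃ₐ[ℂ] (regC A ⧸ M) := AlgEquiv.ofBijective (Algebra.ofId ℂ _) h3
    let x : regC A →ₐ[ℂ] ℂ := E.symm.toAlgHom.comp (Ideal.Quotient.mkₐ ℂ M)
    obtain ⟨q, hq, hx⟩ := exists_q x
    obtain ⟨i, hi⟩ := h q hq
    apply hi
    have h4 : x (a' i) = 0 := by
      have h5 : a' i ∈ M := hIM (Ideal.subset_span ⟨i, rfl⟩)
      have h6 : Ideal.Quotient.mkₐ ℂ M (a' i) = 0 := Ideal.Quotient.eq_zero_iff_mem.2 h5
      show E.symm (Ideal.Quotient.mkₐ ℂ M (a' i)) = 0
      rw [h6, map_zero]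
    rw [hx] at h4
    exact h4
  have h1 : (1 : regC A) ∈ Ideal.span (Set.range a') := by
    rw [← hI, htop]; trivial
  obtain ⟨b, hb⟩ := (Submodule.mem_span_range_iff_exists_fun (regC A)).1 h1
  refine ⟨fun i => b i, fun i => (b i).2, ?_⟩
  have := congrArg (Subtype.val : regC A → K) hb
  rw [AddSubmonoidClass.coe_finsetSum] at this
  exact this

/-- lower bound for regular functions without common zeros -/
theorem exists_lower {ι : Type*} [Fintype ι] {a : ι → K} (ha : ∀ i, A.IsReg (a i))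
    (h : ∀ q ∈ A.S.M, ∃ i, A.val (a i) q ≠ 0) :
    ∃ (c : ℝ) (k : ℕ), 0 < c ∧ ∀ q ∈ A.S.M, 1 ≤ c * (1 + A.p q.1) ^ k * ∑ i, ‖A.val (a i) q‖ ^ 2 := by
  obtain ⟨b, hb, hsum⟩ := exists_sum_eq_one ha h
  choose c k hc hg using fun i => Mod.growth (hb i)
  refine ⟨∑ i, (c i) ^ 2 + 1, 2 * ∑ i, k i, by positivity, fun q hq => ?_⟩
  have hp := A.p_nonneg q.1
  have h1 : ∑ i, A.val (b i) q * A.val (a i) q = 1 := by
    have : A.val (∑ i, b i * a i) q = A.val 1 q := congrArg (fun f => A.val f q) hsum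
    rw [Mod.val_one hq, Mod.val_sum hq _ (fun i _ => Mod.IsReg.mul (hb i) (ha i))] at this
    rw [← this]
    exact Finset.sum_congr rfl fun i _ => (Mod.val_mul hq (hb i) (ha i)).symm
  have h2 : (1 : ℝ) ≤ (∑ i, ‖A.val (b i) q‖ ^ 2) * ∑ i, ‖A.val (a i) q‖ ^ 2 := by
    have h3 : (1 : ℝ) = ‖∑ i, A.val (b i) q * A.val (a i) q‖ ^ 2 := by rw [h1]; simp
    rw [h3]
    have h4 : ‖∑ i, A.val (b i) q * A.val (a i) q‖ ≤ ∑ i, ‖A.val (b i) q‖ * ‖A.val (a i) q‖ :=
      (norm_sum_le _ _).trans (le_of_eq (Finset.sum_congr rfl fun i _ => norm_mul _ _))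
    exact (pow_le_pow_left₀ (norm_nonneg _) h4 2).trans (Finset.sum_mul_sq_le_sq_mul_sq _ _ _)
  refine h2.trans (mul_le_mul_of_nonneg_right ?_ (Finset.sum_nonneg fun i _ => by positivity))
  calc ∑ i, ‖A.val (b i) q‖ ^ 2 ≤ ∑ i, (c i) ^ 2 * (1 + A.p q.1) ^ (2 * ∑ i, k i) := by
        refine Finset.sum_le_sum fun i _ => ?_
        have h3 := hg i q hq
        have h4 : (1 + A.p q.1) ^ k i ≤ (1 + A.p q.1) ^ (∑ i, k i) :=
          pow_le_pow_right₀ (by linarith) (Finset.single_le_sum (f := k) (fun i _ => Nat.zero_le _)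
            (Finset.mem_univ i))
        calc ‖A.val (b i) q‖ ^ 2 ≤ (c i * (1 + A.p q.1) ^ (∑ i, k i)) ^ 2 :=
              pow_le_pow_left₀ (norm_nonneg _)
                (h3.trans (mul_le_mul_of_nonneg_left h4 (hc i))) 2
          _ = _ := by rw [mul_pow, ← pow_mul, mul_comm 2]
    _ = (∑ i, (c i) ^ 2) * (1 + A.p q.1) ^ (2 * ∑ i, k i) := by rw [Finset.sum_mul]
    _ ≤ _ := mul_le_mul_of_nonneg_right (by linarith) (by positivity)

end Vale.Agent.P299.H212
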